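import Vale.Agent.P073.UAll
import Vale.Agent.P073.WC

open Set Metric Vale.Agent.P073

namespace Vale.Agent.Results.P073.All

/-- Diffeomorphic approximation in `W^{1,p}` of nearly affine, triangular and gradient
homeomorphisms and of compositions of tame maps, stability under composition, and two criteria. -/
theorem result (p : ENNReal) (hp : 1 ≤ p) (hp' : p ≠ ⊤) (Ω Λ : Set E) (hΩ : Dom Ω) (hΛ : Dom Λ)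
    (f : E → E) (hf : Homeo Ω Λ f) :
    (∀ G, Sob p Ω f G →
      ((∀ x ∈ Ω, ∃ r > 0, ball x r ⊆ Ω ∧ NearAff f (ball x r)) → Approx p Ω Λ f G) ∧
      ((∀ x ∈ Ω, ∃ r > 0, ball x r ⊆ Ω ∧ Tri f (ball x r)) → Approx p Ω Λ f G) ∧
      ((∀ x ∈ Ω, ∃ r > 0, ∃ U : E → ℝ, ball x r ⊆ Ω ∧ ConvexOn ℝ (ball x r) U ∧
        ∀ y ∈ ball x r, HasGradientAt U (f y) y) → Approx p Ω Λ f G) ∧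
      ((∀ x ∈ Ω, ∃ r > 0, ∃ κ > 0, ball x r ⊆ Ω ∧ Grow f (ball x r) κ) → Approx p Ω Λ f G) ∧
      (∀ g, Fac Ω Λ g → EqOn g f Ω → Approx p Ω Λ f G) ∧
      (Approx p Ω Λ f G → ∀ (Ω' Λ' : Set E) (h Φ : E → E) (L : ℝ), Fac Ω' Ω h → Dom Λ' →
        Diffeo Λ Λ' Φ → (∀ w ∈ Λ, ‖fderiv ℝ Φ w‖ ≤ L) → (∃ H, Sob p Ω' (Φ ∘ f ∘ h) H) ∧
          ∀ H, Sob p Ω' (Φ ∘ f ∘ h) H → Approx p Ω' Λ' (Φ ∘ f ∘ h) H)) ∧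
    ∀ L > (0 : ℝ), ((∀ x ∈ Ω, ∃ r > 0, ball x r ⊆ Ω ∧ ∃ a, 1 ≤ L * a ∧ a ≤ L ∧
        ∀ y ∈ ball x r, ∀ z ∈ ball x r,
          a * ‖y - z‖ ≤ ‖f y - f z‖ ∧ ‖f y - f z‖ ≤ 2001 / 2000 * a * ‖y - z‖) ∨
      ContDiffOn ℝ 1 f Ω ∧
        ∀ x ∈ Ω, ∀ v, ‖v‖ ≤ L * ‖fderiv ℝ f x v‖ ∧ ‖fderiv ℝ f x v‖ ≤ L * ‖v‖) → Tame Ω Λ f :=
  ⟨fun G hs => ⟨a_d p Ω Λ f G hp hp' hΩ.1 hΩ.2.2 hΛ.1 hΛ.2.2 hΛ.2.1 hf hs,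
    a_tri p Ω Λ f G hp hp' hΩ.1 hΩ.2.1 hΩ.2.2 hΛ.1 hΛ.2.2 hΛ.2.1 hf hs,
    fun h => approxC hp hp' hΩ.1 hΩ.2.2 hΛ.1 hΛ.2.2 hΛ.2.1 hf hs hf.1 hs fun x hx =>
      let ⟨r, r0, U, a, b, c⟩ := h x hx
      ⟨r, r0, U, a, hf.2.1.injOn.mono a, b, c, fun _ _ _ _ => by simp⟩,
    approxA hp hp' hΩ.1 hΩ.2.2 hΛ.1 hΛ.2.2 hΛ.2.1 hf hs,
    fun _ h e => approx_fac hp hp' h e hs,
    fun a _ _ _ _ _ h1 h2 h3 h4 => approx_comp hp hp' hΩ hΛ hf hs a h1 h2 h3 h4⟩,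
    fun _ hL h => h.elim (tame_iso hf hL) fun k => tame_c1 hΩ.1 hf k.1 hL k.2⟩

end Vale.Agent.Results.P073.All
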