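import Vale.Agent.P073.Main

open Set Metric Vale.Agent.P073
open scoped RealInnerProductSpace

namespace Vale.Agent.Results.P073.Monotone

/-- Diffeomorphic approximation in `W^{1,p}` of two classes of maps of bounded domains. -/
theorem result (p : ENNReal) (hp : 1 ≤ p) (hp' : p ≠ ⊤) (Ω : Set E) (hΩ : IsOpen Ω)
    (hc : IsConnected Ω) (hb : Bornology.IsBounded Ω) (f : E → E) (G : Fin 3 → E → E)
    (hs : Sob p Ω f G) :
    (∀ Λ : Set E, IsOpen Λ → IsConnected Λ → Bornology.IsBounded Λ → Homeo Ω Λ f →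
      (∀ x ∈ Ω, ∃ r > 0, ∃ κ > 0, ball x r ⊆ Ω ∧ Grow f (ball x r) κ) → Approx p Ω Λ f G) ∧
    ∀ (A : E → E) (H : Fin 3 → E → E) (κ : ℝ), Continuous f → Continuous A → Sob p Ω A H →
      EqOn f A Ωᶜ → 0 < κ →
      (∀ v : E, ‖v‖ = 1 → ∃ c : E, ‖c‖ = 1 ∧ ∀ (y : E) (t : ℝ), 0 ≤ t →
        0 ≤ ⟪c, f (y + t • v) - f y⟫ ∧ κ * t ≤ ⟪c, A (y + t • v) - A y⟫) →
      Approx p Ω (A '' Ω) f G :=
  ⟨fun _ h1 h2 h3 h4 h5 => approxA hp hp' hΩ hb h1 h3 h2 h4 hs h5,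
    fun _ _ _ h1 h2 h3 h4 h5 h6 => approxB hp hp' hΩ hb hc h1 h2 hs h3 h4 h5 h6⟩

end Vale.Agent.Results.P073.Monotone
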